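import Mathlib
import Vale.Agent.Lib.Helper9.P243.Coplanar2

set_option autoImplicit false

open MeasureTheory

namespace Vale.Agent.Results.P243.CoplanarAxes

open Vale.Agent.Lib.Helper9.P243

/-- Bang's half-area cylinder covering inequality for all coverings whose cylinder axes are
parallel to a common plane. Let `K` be a compact convex set in Euclidean 3-space (in particular
any convex body), `n` a unit vector, and let finitely many cylinders `B i + ℝ (d i)` cover `K`,
where every axis direction `d i` is a unit vector orthogonal to `n` and the base `B i` is an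
arbitrary subset of the plane through the origin orthogonal to `d i`. Then the total base area
is at least half of the least area of the orthogonal projections of `K` along unit vectors
orthogonal to `n`, and hence at least half of the least area of all orthogonal projections of
`K`. Areas are the 2-dimensional Euclidean Hausdorff measure `μHE[2]`; the orthogonal projection
along a unit vector `w` is `x ↦ x - ⟪w, x⟫ • w`. -/
theorem result
    (K : Set (EuclideanSpace ℝ (Fin 3))) (hKconv : Convex ℝ K) (hKcomp : IsCompact K)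
    (n : EuclideanSpace ℝ (Fin 3)) (hn : ‖n‖ = 1)
    (m : ℕ) (d : Fin m → EuclideanSpace ℝ (Fin 3)) (B : Fin m → Set (EuclideanSpace ℝ (Fin 3)))
    (hd : ∀ i, ‖d i‖ = 1) (hdn : ∀ i, inner ℝ (d i) n = 0)
    (hB : ∀ i, ∀ b ∈ B i, inner ℝ b (d i) = 0)
    (hcov : ∀ x ∈ K, ∃ i, ∃ b ∈ B i, ∃ t : ℝ, x = b + t • d i) :
    (1 / 2 : ENNReal) * (⨅ w ∈ {w : EuclideanSpace ℝ (Fin 3) | ‖w‖ = 1 ∧ inner ℝ w n = 0},
          μHE[2] ((fun x : EuclideanSpace ℝ (Fin 3) => x - (inner ℝ w x : ℝ) • w) '' K))
        ≤ ∑ i, μHE[2] (B i)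
    ∧ (1 / 2 : ENNReal) * (⨅ w ∈ {w : EuclideanSpace ℝ (Fin 3) | ‖w‖ = 1},
          μHE[2] ((fun x : EuclideanSpace ℝ (Fin 3) => x - (inner ℝ w x : ℝ) • w) '' K))
        ≤ ∑ i, μHE[2] (B i) := by
  have h1 := coplanar_final K hKconv hKcomp n hn m d B hd hdn hB hcov
  refine ⟨h1, le_trans (mul_le_mul_right ?_ _) h1⟩
  apply le_iInf₂
  intro w hw
  exact iInf₂_le w hw.1

end Vale.Agent.Results.P243.CoplanarAxes
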