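import Mathlib
import Vale.Agent.Lib.Helper9.P243.Rvi
import Vale.Agent.Lib.Helper9.P243.Merge

set_option autoImplicit false

open MeasureTheory

namespace Vale.Agent.Results.P243.RefinedVolume

open Vale.Agent.Lib.Helper9.P243

/-- Bang's cylinder covering problem: a refined volume inequality and its consequences.
`K` is a convex body in Euclidean 3-space covered by finitely many cylinders `B i + ℝ (d i)`
(`d i` a unit vector, the base `B i` any subset of the plane through the origin orthogonal to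
`d i`). Areas are the 2-dimensional Euclidean Hausdorff measure `μHE[2]`. The hypotheses `hP`,
`hb`, `hk` only name three quantities: `P w` is the orthogonal projection of `K` along `w`
(the image of `K` under `x ↦ x - ⟪w, x⟫ • w`), `b i` is the relative area of the part of the
base `B i` inside the projection `P (d i)`, and `k` is the number of distinct direction
vectors. Then:
(a) `1 ≤ ∑ b i * (3 - 2 * √(b i))`;
(b) the directionwise relative area is at least `k * a` whenever `k * a * (3 - 2 * √a) ≤ 1`;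
(c) the directionwise relative area is at least `1/3 + 2 / (9 * √(3 * k))`;
(d) the total base area is at least `1/3 + 2 / (9 * √(3 * k))` times the least projection area;
(e) if `k ≤ 2`, the directionwise relative area is at least `1/2` and the total base area is
at least half of the least projection area. -/
theorem result
    (K : Set (EuclideanSpace ℝ (Fin 3))) (hKconv : Convex ℝ K) (hKcomp : IsCompact K)
    (hKint : (interior K).Nonempty)
    (m : ℕ) (d : Fin m → EuclideanSpace ℝ (Fin 3)) (hd : ∀ i, ‖d i‖ = 1)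
    (B : Fin m → Set (EuclideanSpace ℝ (Fin 3)))
    (hB : ∀ i, ∀ x ∈ B i, inner ℝ x (d i) = 0)
    (hcov : ∀ x ∈ K, ∃ i, ∃ y ∈ B i, ∃ t : ℝ, x = y + t • d i)
    (P : EuclideanSpace ℝ (Fin 3) → Set (EuclideanSpace ℝ (Fin 3)))
    (hP : ∀ w, P w = (fun x : EuclideanSpace ℝ (Fin 3) => x - (inner ℝ w x : ℝ) • w) '' K)
    (b : Fin m → ℝ)
    (hb : ∀ i, b i = (μHE[2] (B i ∩ P (d i)) / μHE[2] (P (d i))).toReal)
    (k : ℕ) (hk : k = (Set.range d).ncard) :
    (1 : ℝ) ≤ ∑ i, b i * (3 - 2 * Real.sqrt (b i))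
    ∧ (∀ a : ℝ, 0 ≤ a → a ≤ 1 → (k : ℝ) * (a * (3 - 2 * Real.sqrt a)) ≤ 1 →
        ENNReal.ofReal (k * a) ≤ ∑ i, μHE[2] (B i) / μHE[2] (P (d i)))
    ∧ ENNReal.ofReal (1 / 3 + 2 / (9 * Real.sqrt (3 * k)))
        ≤ ∑ i, μHE[2] (B i) / μHE[2] (P (d i))
    ∧ ENNReal.ofReal (1 / 3 + 2 / (9 * Real.sqrt (3 * k)))
        * (⨅ w ∈ {w : EuclideanSpace ℝ (Fin 3) | ‖w‖ = 1}, μHE[2] (P w))
        ≤ ∑ i, μHE[2] (B i)
    ∧ (k ≤ 2 →
        (1 / 2 : ENNReal) ≤ ∑ i, μHE[2] (B i) / μHE[2] (P (d i))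
        ∧ (1 / 2 : ENNReal) * (⨅ w ∈ {w : EuclideanSpace ℝ (Fin 3) | ‖w‖ = 1}, μHE[2] (P w))
          ≤ ∑ i, μHE[2] (B i)) := by
  obtain rfl : P = fun w =>
      (fun x : EuclideanSpace ℝ (Fin 3) => x - (inner ℝ w x : ℝ) • w) '' K := funext hP
  obtain rfl : b = fun i =>
      (μHE[2] (B i ∩ (fun x : EuclideanSpace ℝ (Fin 3) => x - (inner ℝ (d i) x : ℝ) • d i) '' K) /
        μHE[2] ((fun x : EuclideanSpace ℝ (Fin 3) =>
          x - (inner ℝ (d i) x : ℝ) • d i) '' K)).toReal := funext hb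
  subst hk
  exact refined_final (fun _ hK hKc hD _ hB' => rvi_coord hK hKc hD hB')
    K hKconv hKcomp hKint m d hd B hB hcov

end Vale.Agent.Results.P243.RefinedVolume
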