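import Mathlib
import Vale.Agent.Lib.Helper9.P243.Sym4

set_option autoImplicit false

open MeasureTheory

namespace Vale.Agent.Results.P243.SymmetricBodies

open Vale.Agent.Lib.Helper9.P243

/-- Bang's cylinder covering problem for centrally symmetric convex bodies. `K` is a convex body
in Euclidean 3-space that is symmetric about a point `c` (the reflection `2 c - x` of every
point `x` of `K` lies in `K`), covered by finitely many cylinders `B i + ℝ (d i)` (`d i` a unit
vector, the base `B i` any subset of the plane through the origin orthogonal to `d i`). Then the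
directionwise relative area `∑ i, area (B i) / area (projection of K along d i)` is at least
`5/12`, and the total base area is at least `5/12` times the least area of an orthogonal
projection of `K`. Areas are the 2-dimensional Euclidean Hausdorff measure `μHE[2]`; the
orthogonal projection along a unit vector `w` is `x ↦ x - ⟪w, x⟫ • w`. -/
theorem result
    (K : Set (EuclideanSpace ℝ (Fin 3))) (hKconv : Convex ℝ K) (hKcomp : IsCompact K)
    (hKint : (interior K).Nonempty)
    (c : EuclideanSpace ℝ (Fin 3)) (hKsym : ∀ x ∈ K, (2 : ℝ) • c - x ∈ K)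
    (m : ℕ) (d : Fin m → EuclideanSpace ℝ (Fin 3)) (hd : ∀ i, ‖d i‖ = 1)
    (B : Fin m → Set (EuclideanSpace ℝ (Fin 3)))
    (hB : ∀ i, ∀ b ∈ B i, inner ℝ b (d i) = 0)
    (hcov : ∀ x ∈ K, ∃ i, ∃ b ∈ B i, ∃ t : ℝ, x = b + t • d i) :
    ENNReal.ofReal (5 / 12) ≤ ∑ i, μHE[2] (B i) /
        μHE[2] ((fun x : EuclideanSpace ℝ (Fin 3) => x - (inner ℝ (d i) x : ℝ) • d i) '' K)
    ∧ ENNReal.ofReal (5 / 12) * (⨅ w ∈ {w : EuclideanSpace ℝ (Fin 3) | ‖w‖ = 1},
          μHE[2] ((fun x : EuclideanSpace ℝ (Fin 3) => x - (inner ℝ w x : ℝ) • w) '' K))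
        ≤ ∑ i, μHE[2] (B i) :=
  sym_final_center K hKconv hKcomp hKint c hKsym m d hd B hB hcov

end Vale.Agent.Results.P243.SymmetricBodies
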