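import Mathlib
import Vale.Agent.Lib.Helper9.P243.Plank
import Vale.Agent.Lib.Helper9.P243.Tent
import Vale.Agent.Lib.Helper9.P243.Core
import Vale.Agent.Lib.Helper9.P243.Final

set_option autoImplicit false

open MeasureTheory

namespace Vale.Agent.Results.P243.TwoDirections

open Vale.Agent.Lib.Helper9.P243

/-- Bang's half-area cylinder covering problem for coverings whose cylinder axes take at most
two directions `u`, `v`: for every convex body `K` in Euclidean 3-space covered by finitely many
cylinders `B i + ℝ (d i)` (base `B i` in the plane through the origin orthogonal to the unit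
vector `d i`, and `d i = u` or `d i = v`), the directionwise relative area is at least `1/2`,
and the total base area is at least half of the least area of an orthogonal projection of `K`.
Areas are the 2-dimensional Euclidean Hausdorff measure `μHE[2]`; the orthogonal projection
along a unit vector `w` is `x ↦ x - ⟪w, x⟫ • w`. -/
theorem result
    (K : Set (EuclideanSpace ℝ (Fin 3))) (hKconv : Convex ℝ K) (hKcomp : IsCompact K)
    (hKint : (interior K).Nonempty)
    (u v : EuclideanSpace ℝ (Fin 3)) (hu : ‖u‖ = 1) (hv : ‖v‖ = 1)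
    (m : ℕ) (d : Fin m → EuclideanSpace ℝ (Fin 3)) (B : Fin m → Set (EuclideanSpace ℝ (Fin 3)))
    (hd : ∀ i, d i = u ∨ d i = v)
    (hB : ∀ i, ∀ b ∈ B i, inner ℝ b (d i) = 0)
    (hcov : ∀ x ∈ K, ∃ i, ∃ b ∈ B i, ∃ t : ℝ, x = b + t • d i) :
    (1 / 2 : ENNReal) ≤ ∑ i, μHE[2] (B i) /
        μHE[2] ((fun x : EuclideanSpace ℝ (Fin 3) => x - (inner ℝ (d i) x : ℝ) • d i) '' K)
    ∧ (1 / 2 : ENNReal) * (⨅ w ∈ {w : EuclideanSpace ℝ (Fin 3) | ‖w‖ = 1},
          μHE[2] ((fun x : EuclideanSpace ℝ (Fin 3) => x - (inner ℝ w x : ℝ) • w) '' K))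
        ≤ ∑ i, μHE[2] (B i) :=
  final_of
    (fun _ hK hKc _ _ hcov' h1 h2 =>
      core_of_tent
        (fun _ hD hDc _ _ h0 h1' hsub _ hτ => tent_bound hD hDc h0 h1' hsub hτ)
        tent_integral hK hKc hcov' h1 h2)
    K hKconv hKcomp hKint u v hu hv m d B hd hB hcov

end Vale.Agent.Results.P243.TwoDirections
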